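import Vale.Agent.P245.H902.Tone

open MeasureTheory Real Set
open scoped NNReal

namespace Vale.Agent.P245

/-- `ρ` is a log-concave density of `μ`. -/
def IsLogConcaveDensity {n : ℕ} (μ : Measure (EuclideanSpace ℝ (Fin n)))
    (ρ : EuclideanSpace ℝ (Fin n) → ℝ) : Prop :=
  Measurable ρ ∧ (∀ x, 0 ≤ ρ x) ∧ ConcaveOn ℝ {x | 0 < ρ x} (fun x => Real.log (ρ x)) ∧
    μ = (volume : Measure (EuclideanSpace ℝ (Fin n))).withDensity
      (fun x => ENNReal.ofReal (ρ x))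

/-- Transport inequality between `μ` and all log-concave laws `ν = e^{-G} μ / Z`, `G` Lipschitz
(`G` need not be convex): `W₁(μ, ν)² ≤ C a² (H(ν|μ) + H(μ|ν))`, in dual form. -/
def LogConcaveTransport {n : ℕ} (μ : Measure (EuclideanSpace ℝ (Fin n))) (C a : ℝ) : Prop :=
  ∀ ρ : EuclideanSpace ℝ (Fin n) → ℝ, IsLogConcaveDensity μ ρ →
    ∀ G : EuclideanSpace ℝ (Fin n) → ℝ, (∃ L : ℝ≥0, LipschitzWith L G) →
      ConcaveOn ℝ {x | 0 < ρ x} (fun x => Real.log (ρ x) - G x) →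
      ∀ v : EuclideanSpace ℝ (Fin n) → ℝ, LipschitzWith 1 v →
        (∫ x, v x ∂μ - ∫ x, v x ∂(μ.tilted fun x => -G x)) ^ 2 ≤
          C * a ^ 2 * (∫ x, G x ∂μ - ∫ x, G x ∂(μ.tilted fun x => -G x))

/-- Gaussian exponential moment `E e^{-t(F - E F)} ≤ e^{C a² t²}` for all 1-Lipschitz `F` and
`t ≥ 0` such that the tilt `e^{-t F} μ` is log-concave (`F` need not be convex). -/
def LogConcaveTiltConcentration {n : ℕ} (μ : Measure (EuclideanSpace ℝ (Fin n)))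
    (C a : ℝ) : Prop :=
  ∀ ρ : EuclideanSpace ℝ (Fin n) → ℝ, IsLogConcaveDensity μ ρ →
    ∀ F : EuclideanSpace ℝ (Fin n) → ℝ, LipschitzWith 1 F → ∀ t : ℝ, 0 ≤ t →
      ConcaveOn ℝ {x | 0 < ρ x} (fun x => Real.log (ρ x) - t * F x) →
        ∫ x, Real.exp (-t * (F x - ∫ y, F y ∂μ)) ∂μ ≤ Real.exp (C * a ^ 2 * t ^ 2)

namespace H902

open Vale.Agent.P245.H607

theorem logConcaveTransport_of {C0 : ℝ} (hC0 : 0 < C0) (hK : H607.KLS C0) {C : ℝ}
    (hC : (2 * √C0 + 4) ^ 2 ≤ C) {n : ℕ} {μ : Measure (EuclideanSpace ℝ (Fin n))}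
    [IsProbabilityMeasure μ] {a : ℝ} (ha : 0 < a)
    (hsub : LinearlySubgaussian μ a) : LogConcaveTransport μ C a := by
  rintro ρ ⟨hm, h0, hco, hμ⟩ G ⟨L, hG⟩ hcoG v hv
  have h := tilt_transport ha hC0 hK hsub hm h0 hco hμ hG hcoG hv
  have h1 : 0 ≤ (2 * √C0 + 4) ^ 2 * a ^ 2 *
      (∫ x, G x ∂μ - ∫ x, G x ∂(μ.tilted fun x => -G x)) := (sq_nonneg _).trans h
  have hc : 0 < (2 * √C0 + 4) ^ 2 * a ^ 2 := by positivity
  have h2 : 0 ≤ ∫ x, G x ∂μ - ∫ x, G x ∂(μ.tilted fun x => -G x) := by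
    by_contra hcon
    push Not at hcon
    have := mul_neg_of_pos_of_neg hc hcon
    linarith
  refine h.trans (mul_le_mul_of_nonneg_right ?_ h2)
  exact mul_le_mul_of_nonneg_right hC (sq_nonneg a)

theorem logConcaveTiltConcentration_of {C0 : ℝ} (hC0 : 0 < C0) (hK : H607.KLS C0) {C : ℝ}
    (hC : (2 * √C0 + 4) ^ 2 ≤ C) {n : ℕ} {μ : Measure (EuclideanSpace ℝ (Fin n))}
    [IsProbabilityMeasure μ] {a : ℝ} (ha : 0 < a)
    (hsub : LinearlySubgaussian μ a) : LogConcaveTiltConcentration μ C a := by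
  rintro ρ ⟨hm, h0, hco, hμ⟩ F hF t ht hcot
  have h := std_of ha hsub hF
  have hm0 : mm μ F 0 = ∫ y, F y ∂μ := by
    unfold mm nu
    simp
  have e1 : ∫ x, exp (-t * (F x - ∫ y, F y ∂μ)) ∂μ = exp (GG μ F t + t * mm μ F 0) := by
    rw [exp_add, h.exp_GG, ← hm0, ← integral_mul_const]
    apply integral_congr_ae
    refine Filter.Eventually.of_forall fun x => ?_
    simp only
    rw [← exp_add]
    congr 1; ring
  rw [e1]
  apply exp_le_exp.2
  rcases ht.eq_or_lt with h00 | htp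
  · rw [← h00, GG_zero h]; simp
  · have hT : ∀ s, 0 ≤ s → s ≤ t → HasLogConcaveDensity (nu μ F s) :=
      fun s hs hst => tilted_lc ha hsub hm h0 hco hμ hF htp hcot hs hst
    have h1 := tangent h t 0
    rw [GG_zero h] at h1
    have h2 := t1 ha hC0 hK hsub hF (v := F) h.lip htp hT
    set D := mm μ F 0 - mm μ F t with hD
    have hD0 : 0 ≤ D := sub_nonneg.2 (mm_anti h htp.le)
    have h2' : D ≤ (2 * √C0 + 4) * a * √(t * D) := h2
    have h3 : D ≤ (2 * √C0 + 4) ^ 2 * a ^ 2 * t := by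
      rcases hD0.eq_or_lt with hz | hDp
      · rw [← hz]; positivity
      · have h4 := pow_le_pow_left₀ hD0 h2' 2
        rw [mul_pow, mul_pow, Real.sq_sqrt (mul_nonneg htp.le hD0)] at h4
        have h5 : D * D ≤ ((2 * √C0 + 4) ^ 2 * a ^ 2 * t) * D := by nlinarith
        exact le_of_mul_le_mul_right h5 hDp
    have h6 : GG μ F t + t * mm μ F 0 ≤ t * D := by
      rw [hD]; nlinarith
    refine h6.trans ?_
    have h7 : t * D ≤ t * ((2 * √C0 + 4) ^ 2 * a ^ 2 * t) :=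
      mul_le_mul_of_nonneg_left h3 htp.le
    refine h7.trans ?_
    have h8 : (2 * √C0 + 4) ^ 2 * (a ^ 2 * t ^ 2) ≤ C * (a ^ 2 * t ^ 2) :=
      mul_le_mul_of_nonneg_right hC (by positivity)
    nlinarith

end H902

end Vale.Agent.P245
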